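import Vale.Agent.P038.Prune

namespace Vale.Agent.Results.P038.A_full

universe u

/-- Seymour's second neighbourhood conjecture: every nonempty finite oriented graph has a vertex
with at least as many vertices at directed distance exactly two as at distance one. -/
theorem result : ∀ (V : Type u) [Finite V] [Nonempty V] (D : Digraph V),
    (∀ v, ¬ D.Adj v v) → (∀ u v, D.Adj u v → ¬ D.Adj v u) →
    ∃ v : V, Set.ncard {u | D.Adj v u} ≤
      Set.ncard {w | w ≠ v ∧ ¬ D.Adj v w ∧ ∃ u, D.Adj v u ∧ D.Adj u w} := by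
  intro V _ _ D _ hA
  classical
  haveI := Fintype.ofFinite V
  obtain ⟨v, hv⟩ := Vale.Agent.P038.exists_sey (V := V) _ D.Adj hA rfl
  refine ⟨v, ?_⟩
  unfold Vale.Agent.P038.Sey at hv
  rw [Set.ncard_eq_toFinset_card', Set.ncard_eq_toFinset_card', Set.toFinset_setOf,
    Set.toFinset_setOf]
  convert hv

end Vale.Agent.Results.P038.A_full
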