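import Vale.Agent.P038.helper16.Main

theorem Vale.Agent.Results.P038.Seymour.result {V : Type*} [Finite V] [Nonempty V]
    (A : V → V → Prop) (_hloop : ∀ v, ¬ A v v) (hasym : ∀ u v, A u v → ¬ A v u) :
    ∃ v : V, Set.ncard {u | A v u} ≤
      Set.ncard {w | w ≠ v ∧ ¬ A v w ∧ ∃ u, A v u ∧ A u w} := by
  classical
  have := Fintype.ofFinite V
  obtain ⟨v, hv⟩ := Vale.Agent.P038.H16.main _ (fun v => Finset.univ.filter (A v)) rfl
    (fun u v h1 h2 => hasym u v (by simpa using h1) (by simpa using h2))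
  refine ⟨v, ?_⟩
  rw [← Set.ncard_coe_finset, ← Set.ncard_coe_finset] at hv
  convert hv using 2
  · ext u
    simp
  · ext w
    simp only [Vale.Agent.P038.H16.N2, Set.mem_ofPred_eq, Finset.coe_sdiff, Finset.coe_biUnion,
      Finset.coe_filter, Finset.mem_univ, true_and, Finset.coe_insert, Set.mem_sdiff,
      Set.mem_iUnion, Set.mem_insert_iff, not_or, exists_prop]
    tauto
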